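import Mathlib

/-!
The multi-level selector lemma (combinatorial part).
-/

namespace Vale.Agent.P034

open Finset

variable {X : Type*} [Fintype X] [DecidableEq X]

/-- The level-`i` certificate condition. -/
def LevelCert (δ : ℕ → ℝ) (lam : X → ℝ) (c' : X → ℕ) (i : ℕ) (M : ℕ) (e : ℝ) : Prop :=
  0 ≤ e ∧ (∀ x, e < lam x → c' x ≤ i) ∧
    (∑ x, if i < c' x then min (lam x) e else 0) + M * e ≤ δ i * ∑ x, min (lam x) e

omit [DecidableEq X] in
theorem improve (δ : ℕ → ℝ) (lam : X → ℝ) (c' : X → ℕ) (i M : ℕ)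
    (h : ∃ e, LevelCert δ lam c' i M e) :
    ∃ e, LevelCert δ lam c' i M e ∧
      δ i * ((univ.filter fun x => e < lam x).card : ℝ) ≤ M := by
  classical
  have hex : ∃ n : ℕ, ∃ e, LevelCert δ lam c' i M e ∧
      (univ.filter fun x => e < lam x).card = n := by
    obtain ⟨e, he⟩ := h
    exact ⟨_, e, he, rfl⟩
  obtain ⟨e, he, hcard⟩ := Nat.find_spec hex
  refine ⟨e, he, ?_⟩
  by_contra hlt
  push Not at hlt
  set A := univ.filter fun x => e < lam x with hA
  have hAne : A.Nonempty := by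
    rw [Finset.nonempty_iff_ne_empty]
    intro h0
    rw [h0] at hlt
    simp at hlt
    have : (0 : ℝ) ≤ M := Nat.cast_nonneg _
    linarith
  obtain ⟨x0, hx0A, hx0min⟩ := A.exists_min_image lam hAne
  have hx0 : e < lam x0 := by simpa [hA] using hx0A
  set e' := lam x0 with he'
  obtain ⟨he0, hsub, hineq⟩ := he
  have key : ∀ x, min (lam x) e' = min (lam x) e + if e < lam x then e' - e else 0 := by
    intro x
    by_cases hx : e < lam x
    · have h1 : e' ≤ lam x := hx0min x (by simpa [hA] using hx)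
      rw [if_pos hx, min_eq_right h1, min_eq_right hx.le]; ring
    · push Not at hx
      rw [if_neg (not_lt.2 hx), min_eq_left hx, min_eq_left (hx.trans hx0.le)]; ring
  have hsum : ∑ x, min (lam x) e' = ∑ x, min (lam x) e + A.card * (e' - e) := by
    simp_rw [key]
    rw [Finset.sum_add_distrib, ← Finset.sum_filter, Finset.sum_const, nsmul_eq_mul]
  have hsum2 : (∑ x, if i < c' x then min (lam x) e' else 0)
      = ∑ x, if i < c' x then min (lam x) e else 0 := by
    refine Finset.sum_congr rfl fun x _ => ?_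
    by_cases hx : i < c' x
    · have : ¬ e < lam x := fun h => absurd (hsub x h) (not_le.2 hx)
      rw [if_pos hx, if_pos hx, key x, if_neg this, add_zero]
    · rw [if_neg hx, if_neg hx]
  have hcert : LevelCert δ lam c' i M e' := by
    refine ⟨he0.trans hx0.le, fun x hx => hsub x (hx0.trans hx), ?_⟩
    rw [hsum, hsum2]
    have h1 : 0 ≤ e' - e := sub_nonneg.2 hx0.le
    have h2 : (M : ℝ) * (e' - e) ≤ δ i * A.card * (e' - e) :=
      mul_le_mul_of_nonneg_right hlt.le h1
    nlinarith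
  have hlt2 : (univ.filter fun x => e' < lam x).card < A.card := by
    apply Finset.card_lt_card
    refine ⟨fun x hx => ?_, fun hh => ?_⟩
    · simp only [hA, mem_filter, mem_univ, true_and] at hx ⊢
      exact hx0.trans hx
    · have := hh hx0A
      simp [he'] at this
  have := Nat.find_min' hex ⟨e', hcert, rfl⟩
  omega

/-- number of recoloured points with new colour at most `i` -/
def Mof (c c' : X → ℕ) (i : ℕ) : ℕ :=
  (univ.filter fun x => c' x ≤ i ∧ c' x ≠ c x).card

def Cert (δ : ℕ → ℝ) (s : ℕ) (F : Finset (Finset X)) (lam : Finset X → X → ℝ)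
    (c' : X → ℕ) (M : ℕ → ℕ) : Prop :=
  ∃ H ∈ F, ∀ i < s, ∃ e, LevelCert δ (lam H) c' i (M i) e

def Feasible (δ : ℕ → ℝ) (s : ℕ) (F : Finset (Finset X)) (lam : Finset X → X → ℝ)
    (c : X → ℕ) (H : Finset X) (c' : X → ℕ) : Prop :=
  (∀ x, c' x ≤ c x) ∧ (∀ x, c' x ≠ c x → x ∈ H) ∧ Cert δ s F lam c' (Mof c c')

def Opt (δ : ℕ → ℝ) (s : ℕ) (F : Finset (Finset X)) (lam : Finset X → X → ℝ)
    (c : X → ℕ) (H : Finset X) (c' : X → ℕ) : Prop :=
  Feasible δ s F lam c H c' ∧ ∀ c'', Feasible δ s F lam c H c'' → ∑ x, c'' x ≤ ∑ x, c' x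

theorem exists_opt (δ : ℕ → ℝ) (s : ℕ) (F : Finset (Finset X)) (lam : Finset X → X → ℝ)
    (hlam0 : ∀ H x, 0 ≤ lam H x) (hlamH : ∀ H x, x ∉ H → lam H x = 0)
    (c : X → ℕ) (H : Finset X) (hH : H ∈ F) : ∃ c', Opt δ s F lam c H c' := by
  classical
  have h0 : Feasible δ s F lam c H (fun x => if x ∈ H then 0 else c x) := by
    refine ⟨fun x => ?_, fun x hx => ?_, H, hH, fun i _ => ⟨0, le_rfl, fun x hx => ?_, ?_⟩⟩
    · dsimp only
      split_ifs <;> simp
    · by_contra hxH
      simp [hxH] at hx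
    · have : x ∈ H := by
        by_contra hxH
        rw [hlamH H x hxH] at hx
        exact lt_irrefl _ hx
      simp [this]
    · have : ∀ x, min (lam H x) 0 = 0 := fun x => min_eq_right (hlam0 H x)
      simp [this]
  have hex : ∃ n : ℕ, ∃ c', Feasible δ s F lam c H c' ∧ ∑ x, c x - ∑ x, c' x = n :=
    ⟨_, _, h0, rfl⟩
  obtain ⟨c', hc', hn⟩ := Nat.find_spec hex
  refine ⟨c', hc', fun c'' hc'' => ?_⟩
  have h1 := Nat.find_min' hex ⟨c'', hc'', rfl⟩
  have h2 : ∑ x, c'' x ≤ ∑ x, c x := Finset.sum_le_sum fun x _ => hc''.1 x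
  have h3 : ∑ x, c' x ≤ ∑ x, c x := Finset.sum_le_sum fun x _ => hc'.1 x
  omega

theorem opt_mem (δ : ℕ → ℝ) (s : ℕ) (F : Finset (Finset X)) (lam : Finset X → X → ℝ)
    (c : X → ℕ) (H : Finset X) (c' : X → ℕ) (hopt : Opt δ s F lam c H c')
    (H'' : Finset X) (hH'' : H'' ∈ F) (e : ℕ → ℝ)
    (he : ∀ i < s, LevelCert δ (lam H'') c' i (Mof c c' i) (e i))
    (x : X) (hx : c' x ≠ c x) : ∃ j ≤ c' x, j < s ∧ e j < lam H'' x := by
  classical
  by_contra hcon
  push Not at hcon
  obtain ⟨⟨hle, hT, -⟩, hmax⟩ := hopt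
  have hlt : c' x < c x := lt_of_le_of_ne (hle x) hx
  set c'' : X → ℕ := Function.update c' x (c' x + 1) with hc''
  have hc''x : c'' x = c' x + 1 := by simp [hc'']
  have hc''y : ∀ y, y ≠ x → c'' y = c' y := fun y hy => by simp [hc'', hy]
  have hfeas : Feasible δ s F lam c H c'' := by
    refine ⟨fun y => ?_, fun y hy => ?_, H'', hH'', fun j hj => ⟨e j, (he j hj).1, ?_, ?_⟩⟩
    · by_cases hy : y = x
      · subst hy; omega
      · rw [hc''y y hy]; exact hle y
    · by_cases hyx : y = x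
      · subst hyx; exact hT _ hx
      · rw [hc''y y hyx] at hy; exact hT y hy
    · intro y hy
      have h1 := (he j hj).2.1 y hy
      by_cases hyx : y = x
      · subst hyx
        rw [hc''x]
        by_contra hh
        have : j ≤ c' y := by omega
        exact absurd hy (not_lt.2 (hcon j this hj))
      · rw [hc''y y hyx]; exact h1
    · obtain ⟨he0, -, hineq⟩ := he j hj
      refine le_trans ?_ hineq
      have hM : ∀ d : X → ℕ, ((Mof c d j : ℕ) : ℝ) * e j
          = ∑ y, if d y ≤ j ∧ d y ≠ c y then e j else 0 := by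
        intro d
        rw [← Finset.sum_filter]
        simp [Mof]
      rw [hM, hM, ← Finset.sum_add_distrib, ← Finset.sum_add_distrib]
      refine Finset.sum_le_sum fun y _ => ?_
      by_cases hyx : y = x
      · subst hyx
        rw [hc''x]
        have hmin : min (lam H'' y) (e j) ≤ e j := min_le_right _ _
        by_cases h1 : j < c' y
        · have h2 : j < c' y + 1 := by omega
          have h3 : ¬ (c' y + 1 ≤ j ∧ c' y + 1 ≠ c y) := by omega
          have h4 : ¬ (c' y ≤ j ∧ c' y ≠ c y) := by omega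
          rw [if_pos h1, if_pos h2, if_neg h3, if_neg h4]
        · have h4 : (c' y ≤ j ∧ c' y ≠ c y) := by omega
          rw [if_neg h1, if_pos h4]
          by_cases h2 : j < c' y + 1
          · have h3 : ¬ (c' y + 1 ≤ j ∧ c' y + 1 ≠ c y) := by omega
            rw [if_pos h2, if_neg h3]; linarith
          · rw [if_neg h2]
            split_ifs <;> linarith
      · rw [hc''y y hyx]
  have h1 := hmax c'' hfeas
  have h2 : ∑ y, c' y < ∑ y, c'' y := by
    refine Finset.sum_lt_sum (fun y _ => ?_) ⟨x, mem_univ _, by omega⟩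
    by_cases hyx : y = x
    · subst hyx; omega
    · rw [hc''y y hyx]
  omega

/-- histogram of the new colours of the recoloured points -/
def prof (s : ℕ) (c c' : X → ℕ) : Fin s → ℕ :=
  fun i => (univ.filter fun x => c' x = i ∧ c' x ≠ c x).card

omit [DecidableEq X] in
theorem Mof_eq (s : ℕ) (c c' : X → ℕ) (i : ℕ) (hi : i < s) :
    Mof c c' i = ∑ j : Fin s, if (j : ℕ) ≤ i then prof s c c' j else 0 := by
  classical
  unfold Mof prof
  rw [Finset.card_filter]
  have : ∀ j : Fin s, (if (j : ℕ) ≤ i then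
      (univ.filter fun x => c' x = j ∧ c' x ≠ c x).card else 0)
      = ∑ x, if (j : ℕ) ≤ i ∧ c' x = j ∧ c' x ≠ c x then 1 else 0 := by
    intro j
    by_cases hj : (j : ℕ) ≤ i
    · rw [if_pos hj, Finset.card_filter]
      simp [hj]
    · simp [hj]
  simp_rw [this]
  rw [Finset.sum_comm]
  refine Finset.sum_congr rfl fun x _ => ?_
  by_cases hx : c' x ≤ i ∧ c' x ≠ c x
  · rw [if_pos hx, Finset.sum_eq_single (⟨c' x, by omega⟩ : Fin s)]
    · rw [if_pos ⟨hx.1, rfl, hx.2⟩]
    · intro b _ hb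
      rw [if_neg]
      rintro ⟨-, h2, -⟩
      exact hb (Fin.ext h2.symm)
    · simp
  · rw [if_neg hx]
    symm
    refine Finset.sum_eq_zero fun j _ => ?_
    rw [if_neg]
    rintro ⟨h1, h2, h3⟩
    exact hx ⟨by omega, h3⟩

theorem exists_container (δ : ℕ → ℝ) (s : ℕ) (F : Finset (Finset X))
    (lam : Finset X → X → ℝ) (c' : X → ℕ) (m : Fin s → ℕ) :
    ∃ B : ℕ → Finset X, (∀ j < s, δ j * ((B j).card : ℝ) ≤ ((∑ k, m k : ℕ) : ℝ)) ∧
      ∀ c H, Opt δ s F lam c H c' → prof s c c' = m →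
        ∀ x, c' x ≠ c x → ∃ j ≤ c' x, j < s ∧ x ∈ B j := by
  classical
  set M : ℕ → ℕ := fun i => ∑ j : Fin s, if (j : ℕ) ≤ i then m j else 0 with hM
  have hMle : ∀ i, M i ≤ ∑ k, m k := fun i =>
    Finset.sum_le_sum fun j _ => by split_ifs <;> simp
  by_cases hc : Cert δ s F lam c' M
  · obtain ⟨H'', hH'', hl⟩ := hc
    have hl' : ∀ i, ∃ e, i < s → (LevelCert δ (lam H'') c' i (M i) e ∧
        δ i * ((univ.filter fun x => e < lam H'' x).card : ℝ) ≤ M i) := by
      intro i
      by_cases hi : i < s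
      · obtain ⟨e, he⟩ := improve δ (lam H'') c' i (M i) (hl i hi)
        exact ⟨e, fun _ => he⟩
      · exact ⟨0, fun h => absurd h hi⟩
    choose e he using hl'
    refine ⟨fun j => univ.filter fun x => e j < lam H'' x, fun j hj => ?_, ?_⟩
    · exact (he j hj).2.trans (by exact_mod_cast hMle j)
    · intro c H hopt hprof x hx
      have : ∀ i < s, LevelCert δ (lam H'') c' i (Mof c c' i) (e i) := by
        intro i hi
        rw [Mof_eq s c c' i hi, hprof]
        exact (he i hi).1
      obtain ⟨j, hj1, hj2, hj3⟩ := opt_mem δ s F lam c H c' hopt H'' hH'' e this x hx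
      exact ⟨j, hj1, hj2, by simpa using hj3⟩
  · refine ⟨fun _ => ∅, fun j _ => by simp; positivity, ?_⟩
    intro c H hopt hprof x _
    exfalso
    apply hc
    obtain ⟨H'', hH'', hl⟩ := hopt.1.2.2
    refine ⟨H'', hH'', fun i hi => ?_⟩
    have := hl i hi
    rw [Mof_eq s c c' i hi, hprof] at this
    exact this

/-- a colouring is good if some member of `F` has little weight above each level -/
def Good (δ : ℕ → ℝ) (s : ℕ) (F : Finset (Finset X)) (lam : Finset X → X → ℝ)
    (c : X → ℕ) : Prop :=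
  ∃ H ∈ F, ∀ i < s, (∑ x, if i < c x then lam H x else 0) ≤ δ i * ∑ x, lam H x

omit [DecidableEq X] in
theorem good_of_feasible_self (δ : ℕ → ℝ) (hδ : ∀ i, 0 < δ i) (s : ℕ) (F : Finset (Finset X))
    (lam : Finset X → X → ℝ) (c : X → ℕ) (H : Finset X) (h : Feasible δ s F lam c H c) :
    Good δ s F lam c := by
  classical
  obtain ⟨H', hH', hl⟩ := h.2.2
  refine ⟨H', hH', fun i hi => ?_⟩
  obtain ⟨e, ⟨-, -, h2⟩, h3⟩ := improve δ (lam H') c i _ (hl i hi)
  have hM : Mof c c i = 0 := by simp [Mof]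
  rw [hM] at h2 h3
  have h4 : (univ.filter fun x => e < lam H' x).card = 0 := by
    by_contra h0
    have : (0 : ℝ) < ((univ.filter fun x => e < lam H' x).card : ℝ) := by
      exact_mod_cast Nat.pos_of_ne_zero h0
    have := mul_pos (hδ i) this
    simp only [Nat.cast_zero] at h3
    linarith
  have h5 : ∀ x, min (lam H' x) e = lam H' x := by
    intro x
    apply min_eq_left
    by_contra hh
    push Not at hh
    have : x ∈ (univ.filter fun x => e < lam H' x) := by simpa using hh
    rw [Finset.card_eq_zero.1 h4] at this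
    simp at this
  simpa [h5] using h2

end Vale.Agent.P034
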