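import Vale.Agent.P034.Defs
import Vale.Agent.P034.Selector

/-!
The counting part of the multi-level selector lemma.
-/

namespace Vale.Agent.P034

open Finset

variable {X : Type*} [Fintype X] [DecidableEq X]

/-- the tolerated uncovered fraction at level `i` -/
noncomputable def dl (i : ℕ) : ℝ := (1 / 2) ^ (i + 1)

theorem dl_pos (i : ℕ) : 0 < dl i := by unfold dl; positivity

/-- all colourings with colours `0, …, s` -/
def Om (X : Type*) [Fintype X] [DecidableEq X] (s : ℕ) : Finset (X → ℕ) :=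
  Fintype.piFinset fun _ => range (s + 1)

theorem mem_Om {s : ℕ} {c : X → ℕ} : c ∈ Om X s ↔ ∀ x, c x ≤ s := by
  simp [Om, Fintype.mem_piFinset]

omit [DecidableEq X] in
theorem prod_prof (s : ℕ) (c c' : X → ℕ) (hs : ∀ x, c' x ≠ c x → c' x < s) (f : ℕ → ℝ) :
    (∏ x, if c' x = c x then 1 else f (c' x)) = ∏ i : Fin s, f i ^ prof s c c' i := by
  classical
  have : ∀ i : Fin s, f i ^ prof s c c' i
      = ∏ x, if c' x = i ∧ c' x ≠ c x then f i else 1 := by
    intro i
    rw [← Finset.prod_filter, Finset.prod_const]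
    rfl
  simp_rw [this]
  rw [Finset.prod_comm]
  refine Finset.prod_congr rfl fun x _ => ?_
  by_cases hx : c' x = c x
  · simp [hx]
  · rw [if_neg hx, Finset.prod_eq_single (⟨c' x, hs x hx⟩ : Fin s)]
    · rw [if_pos ⟨rfl, hx⟩]
    · intro b _ hb
      rw [if_neg]
      rintro ⟨h2, -⟩
      exact hb (Fin.ext h2.symm)
    · simp

theorem geom_le {x : ℝ} (h0 : 0 ≤ x) (h1 : x < 1) (n : ℕ) :
    ∑ i ∈ range n, x ^ i ≤ 1 / (1 - x) := by
  have := geom_sum_Ico_le_of_lt_one (m := 0) (n := n) h0 h1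
  rwa [pow_zero, ← Finset.range_eq_Ico] at this

theorem sum_half_le (s : ℕ) : ∑ j ∈ range s, ((1 : ℝ) / 2) ^ (j + 1) ≤ 1 := by
  have := sum_geometric_two_le s
  simp_rw [pow_succ]
  rw [← Finset.sum_mul]
  linarith

theorem count_fixed (s : ℕ) (w : ℕ → ℝ) (hw0 : ∀ k, 0 ≤ w k)
    (hw1 : ∑ k ∈ range (s + 1), w k ≤ 1) (c' : X → ℕ) (m : Fin s → ℕ) (B : ℕ → Finset X)
    (hB : ∀ j < s, dl j * ((B j).card : ℝ) ≤ ((∑ k, m k : ℕ) : ℝ))
    (C : Finset (X → ℕ)) (hC : C ⊆ Om X s) (hCm : ∀ c ∈ C, prof s c c' = m)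
    (hCs : ∀ c ∈ C, ∀ x, c' x ≠ c x → c' x < s)
    (hCB : ∀ c ∈ C, ∀ x, c' x ≠ c x → ∃ j ≤ c' x, j < s ∧ x ∈ B j) :
    ∑ c ∈ C, (∏ x, if c' x = c x then 1 else (1 / 256 : ℝ) ^ (c' x + 1) * w (c x))
      ≤ ∏ i : Fin s, (Real.exp 1 * (1 / 64 : ℝ) ^ ((i : ℕ) + 1)) ^ m i := by
  classical
  set D : Finset X := univ.filter fun x => ∃ j ≤ c' x, j < s ∧ x ∈ B j with hD
  set φ : X → ℕ → ℝ := fun x k =>
    if c' x = k then 1 else if x ∈ D then (1 / 4 : ℝ) ^ (c' x + 1) * w k else 0 with hφ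
  have hφ0 : ∀ x k, 0 ≤ φ x k := by
    intro x k
    simp only [hφ]
    have := hw0 k
    split_ifs <;> positivity
  set Θ : ℝ := ∏ i : Fin s, ((1 / 64 : ℝ) ^ ((i : ℕ) + 1)) ^ m i with hΘ
  have hΘ0 : 0 ≤ Θ := Finset.prod_nonneg fun i _ => by positivity
  have h1 : ∀ c ∈ C, (∏ x, if c' x = c x then 1 else (1 / 256 : ℝ) ^ (c' x + 1) * w (c x))
      = Θ * ∏ x, φ x (c x) := by
    intro c hc
    rw [hΘ, ← hCm c hc, ← prod_prof s c c' (hCs c hc) (fun i => (1 / 64 : ℝ) ^ (i + 1)),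
      ← Finset.prod_mul_distrib]
    refine Finset.prod_congr rfl fun x _ => ?_
    by_cases hx : c' x = c x
    · simp [hφ, hx]
    · have hxD : x ∈ D := by
        simp only [hD, mem_filter, mem_univ, true_and]
        exact hCB c hc x hx
      simp only [hφ, if_neg hx, if_pos hxD]
      rw [← mul_assoc, ← mul_pow]
      norm_num
  rw [Finset.sum_congr rfl h1, ← Finset.mul_sum]
  have h2 : ∑ c ∈ C, ∏ x, φ x (c x) ≤ ∑ c ∈ Om X s, ∏ x, φ x (c x) :=
    Finset.sum_le_sum_of_subset_of_nonneg hC fun c _ _ => Finset.prod_nonneg fun x _ => hφ0 _ _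
  have h3 : ∑ c ∈ Om X s, ∏ x, φ x (c x) = ∏ x, ∑ k ∈ range (s + 1), φ x k := by
    rw [Finset.prod_univ_sum]; rfl
  have h4 : ∀ x, ∑ k ∈ range (s + 1), φ x k
      ≤ 1 + if x ∈ D then (1 / 4 : ℝ) ^ (c' x + 1) else 0 := by
    intro x
    have h5 : ∀ k, φ x k ≤ (if c' x = k then 1 else 0)
        + (if x ∈ D then (1 / 4 : ℝ) ^ (c' x + 1) else 0) * w k := by
      intro k
      have := hw0 k
      simp only [hφ]
      split_ifs
      · have : 0 ≤ (1 / 4 : ℝ) ^ (c' x + 1) * w k := by positivity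
        linarith
      · simp
      · simp
      · simp
    refine (Finset.sum_le_sum fun k _ => h5 k).trans ?_
    rw [Finset.sum_add_distrib, ← Finset.mul_sum]
    have h6 : (∑ k ∈ range (s + 1), if c' x = k then (1 : ℝ) else 0) ≤ 1 := by
      rw [Finset.sum_ite_eq]
      split_ifs <;> norm_num
    have h7 : 0 ≤ (if x ∈ D then (1 / 4 : ℝ) ^ (c' x + 1) else 0) := by
      split_ifs <;> positivity
    nlinarith
  have h5 : ∏ x, ∑ k ∈ range (s + 1), φ x k
      ≤ Real.exp (∑ x, if x ∈ D then (1 / 4 : ℝ) ^ (c' x + 1) else 0) := by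
    refine le_trans (Finset.prod_le_prod (fun x _ => Finset.sum_nonneg fun k _ => hφ0 _ _)
      fun x _ => h4 x) ?_
    exact Real.prod_one_add_le_exp_sum _ fun x => by split_ifs <;> positivity
  have h6 : (∑ x, if x ∈ D then (1 / 4 : ℝ) ^ (c' x + 1) else 0) ≤ ((∑ k, m k : ℕ) : ℝ) := by
    have h7 : ∀ x, (if x ∈ D then (1 / 4 : ℝ) ^ (c' x + 1) else 0)
        ≤ ∑ j ∈ range s, if x ∈ B j then (1 / 4 : ℝ) ^ (j + 1) else 0 := by
      intro x
      have hnn : ∀ j ∈ range s, 0 ≤ (if x ∈ B j then (1 / 4 : ℝ) ^ (j + 1) else 0) :=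
        fun j _ => by split_ifs <;> positivity
      by_cases hx : x ∈ D
      · rw [if_pos hx]
        simp only [hD, mem_filter, mem_univ, true_and] at hx
        obtain ⟨j, hj1, hj2, hj3⟩ := hx
        refine le_trans ?_ (Finset.single_le_sum hnn (mem_range.2 hj2))
        rw [if_pos hj3]
        exact pow_le_pow_of_le_one (by norm_num) (by norm_num) (by omega)
      · rw [if_neg hx]
        exact Finset.sum_nonneg hnn
    refine (Finset.sum_le_sum fun x _ => h7 x).trans ?_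
    rw [Finset.sum_comm]
    have h8 : ∀ j ∈ range s, (∑ x, if x ∈ B j then (1 / 4 : ℝ) ^ (j + 1) else 0)
        ≤ (1 / 2 : ℝ) ^ (j + 1) * ((∑ k, m k : ℕ) : ℝ) := by
      intro j hj
      have h9 := hB j (mem_range.1 hj)
      rw [← Finset.sum_filter, Finset.sum_const, nsmul_eq_mul]
      have h10 : (univ.filter fun x => x ∈ B j) = B j := by ext; simp
      rw [h10]
      have h11 : (1 / 4 : ℝ) ^ (j + 1) = (1 / 2 : ℝ) ^ (j + 1) * dl j := by
        unfold dl; rw [← mul_pow]; norm_num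
      rw [h11]
      have h12 : 0 ≤ (1 / 2 : ℝ) ^ (j + 1) := by positivity
      nlinarith
    refine (Finset.sum_le_sum h8).trans ?_
    rw [← Finset.sum_mul]
    have h13 := sum_half_le s
    have h14 : (0 : ℝ) ≤ ((∑ k, m k : ℕ) : ℝ) := Nat.cast_nonneg _
    nlinarith
  have h7 : ∏ i : Fin s, (Real.exp 1 * (1 / 64 : ℝ) ^ ((i : ℕ) + 1)) ^ m i
      = Θ * Real.exp ((∑ k, m k : ℕ) : ℝ) := by
    simp_rw [mul_pow]
    rw [Finset.prod_mul_distrib, mul_comm, Finset.prod_pow_eq_pow_sum, ← Real.exp_nat_mul, mul_one]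
  rw [h7]
  refine mul_le_mul_of_nonneg_left ?_ hΘ0
  exact h2.trans (h3.le.trans (h5.trans (Real.exp_le_exp.2 h6)))

theorem sum_prof_le (s n : ℕ) :
    ∑ m ∈ (Fintype.piFinset fun _ : Fin s => range (n + 1)).erase 0,
      ∏ i : Fin s, (Real.exp 1 * (1 / 64 : ℝ) ^ ((i : ℕ) + 1)) ^ m i ≤ 1 / 9 := by
  classical
  have h0 : (0 : Fin s → ℕ) ∈ (Fintype.piFinset fun _ : Fin s => range (n + 1)) := by
    simp [Fintype.mem_piFinset]
  have h1 := Finset.add_sum_erase _
    (fun m : Fin s → ℕ => ∏ i : Fin s, (Real.exp 1 * (1 / 64 : ℝ) ^ ((i : ℕ) + 1)) ^ m i) h0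
  rw [← Finset.prod_univ_sum (fun _ : Fin s => range (n + 1))
    (fun i k => (Real.exp 1 * (1 / 64 : ℝ) ^ ((i : ℕ) + 1)) ^ k)] at h1
  simp only [Pi.zero_apply, pow_zero, prod_const_one] at h1
  have he := Real.exp_one_lt_three
  have he0 := Real.exp_pos 1
  have hρ : ∀ i : ℕ, 0 < Real.exp 1 * (1 / 64 : ℝ) ^ (i + 1) ∧
      Real.exp 1 * (1 / 64 : ℝ) ^ (i + 1) ≤ (3 / 64) * (1 / 64 : ℝ) ^ i := by
    intro i
    refine ⟨by positivity, ?_⟩
    rw [pow_succ]
    have : 0 < (1 / 64 : ℝ) ^ i := by positivity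
    nlinarith
  have h2 : ∀ i : Fin s, ∑ k ∈ range (n + 1), (Real.exp 1 * (1 / 64 : ℝ) ^ ((i : ℕ) + 1)) ^ k
      ≤ 1 + (6 / 64) * (1 / 64 : ℝ) ^ (i : ℕ) := by
    intro i
    obtain ⟨h3, h4⟩ := hρ i
    set ρ := Real.exp 1 * (1 / 64 : ℝ) ^ ((i : ℕ) + 1)
    have h5 : (1 / 64 : ℝ) ^ (i : ℕ) ≤ 1 := pow_le_one₀ (by norm_num) (by norm_num)
    have h6 : ρ ≤ 1 / 2 := by linarith
    refine (geom_le h3.le (by linarith) _).trans ?_
    rw [div_le_iff₀ (by linarith)]
    nlinarith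
  have h3 : ∏ i : Fin s, ∑ k ∈ range (n + 1), (Real.exp 1 * (1 / 64 : ℝ) ^ ((i : ℕ) + 1)) ^ k
      ≤ Real.exp (∑ i : Fin s, (6 / 64) * (1 / 64 : ℝ) ^ (i : ℕ)) := by
    refine le_trans (Finset.prod_le_prod (fun i _ => Finset.sum_nonneg fun k _ => by positivity)
      fun i _ => h2 i) ?_
    exact Real.prod_one_add_le_exp_sum _ fun i => by positivity
  have h4 : ∑ i : Fin s, (6 / 64) * (1 / 64 : ℝ) ^ (i : ℕ) ≤ 1 / 10 := by
    rw [← Finset.mul_sum, Fin.sum_univ_eq_sum_range (fun i => (1 / 64 : ℝ) ^ i)]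
    have := geom_le (x := (1 / 64 : ℝ)) (by norm_num) (by norm_num) s
    have h : (1 : ℝ) / (1 - 1 / 64) = 64 / 63 := by norm_num
    rw [h] at this
    linarith
  have h5 : Real.exp (1 / 10) ≤ 1 / (1 - 1 / 10) :=
    Real.exp_bound_div_one_sub_of_interval (by norm_num) (by norm_num)
  have h6 := Real.exp_le_exp.2 h4
  have h7 : (1 : ℝ) / (1 - 1 / 10) = 10 / 9 := by norm_num
  rw [h7] at h5
  linarith

theorem bad_bound (s : ℕ) (F : Finset (Finset X)) (lam : Finset X → X → ℝ)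
    (hlam0 : ∀ H x, 0 ≤ lam H x) (hlamH : ∀ H x, x ∉ H → lam H x = 0)
    (q : ℝ) (hq : 0 ≤ q) (hns : ¬ IsSmall q F)
    (w : ℕ → ℝ) (hw0 : ∀ k, 0 ≤ w k) (hw1 : ∑ k ∈ range (s + 1), w k ≤ 1)
    (hwq : ∀ k < s, q = (1 / 256 : ℝ) ^ (k + 1) * w k)
    (Bad : Finset (X → ℕ)) (hBad : Bad ⊆ Om X s) (hBad2 : ∀ c ∈ Bad, ¬ Good dl s F lam c)
    (htot : ∑ c ∈ Om X s, ∏ x, w (c x) ≤ 1) :
    ∑ c ∈ Bad, ∏ x, w (c x) ≤ 2 / 9 := by
  classical
  set R : (X → ℕ) → (X → ℕ) → Prop := fun c c' => c' ≠ c ∧ ∃ H, Opt dl s F lam c H c' with hR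
  have hP0 : ∀ c : X → ℕ, 0 ≤ ∏ x, w (c x) := fun c => Finset.prod_nonneg fun x _ => hw0 _
  -- step 1: each bad colouring gives an expensive cover
  have step1 : ∀ c ∈ Bad, (1 / 2 : ℝ) ≤ ∑ c' ∈ (Om X s).filter (R c),
      ∏ x, if c' x = c x then 1 else q := by
    intro c hc
    have hex : ∀ H : Finset X, ∃ c', H ∈ F → Opt dl s F lam c H c' := by
      intro H
      by_cases hH : H ∈ F
      · obtain ⟨c', hc'⟩ := exists_opt dl s F lam hlam0 hlamH c H hH
        exact ⟨c', fun _ => hc'⟩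
      · exact ⟨c, fun h => absurd h hH⟩
    choose o ho using hex
    set U := (Om X s).filter (R c) with hU
    set T : (X → ℕ) → Finset X := fun c' => univ.filter fun x => c' x ≠ c x with hT
    have hcov : Covers (U.image T) F := by
      intro H hH
      refine ⟨T (o H), Finset.mem_image_of_mem _ ?_, fun x hx => ?_⟩
      · simp only [hU, mem_filter]
        refine ⟨mem_Om.2 fun x => ((ho H hH).1.1 x).trans (mem_Om.1 (hBad hc) x), ?_, H, ho H hH⟩
        intro heq
        have := (ho H hH).1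
        rw [heq] at this
        exact hBad2 c hc (good_of_feasible_self dl dl_pos s F lam c H this)
      · exact (ho H hH).1.2.1 x (by simpa [hT] using hx)
    have hcost : 1 / 2 < cost q (U.image T) := by
      by_contra hh
      exact hns ⟨_, hcov, not_lt.1 hh⟩
    refine hcost.le.trans ?_
    unfold cost
    refine (Finset.sum_image_le_of_nonneg fun S _ => by positivity).trans (le_of_eq ?_)
    refine Finset.sum_congr rfl fun c' _ => ?_
    rw [← Finset.prod_const, hT, Finset.prod_filter]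
    refine Finset.prod_congr rfl fun x _ => ?_
    by_cases hx : c' x = c x <;> simp [hx]
  -- step 2: the sum over the old colouring for a fixed new colouring
  have step2 : ∀ c' ∈ Om X s, ∑ c ∈ (Om X s).filter (fun c => R c c'),
      (∏ x, if c' x = c x then 1 else (1 / 256 : ℝ) ^ (c' x + 1) * w (c x)) ≤ 1 / 9 := by
    intro c' _
    set n := Fintype.card X
    have hs : ∀ c ∈ (Om X s).filter (fun c => R c c'), ∀ x, c' x ≠ c x → c' x < s := by
      intro c hc x hx
      simp only [mem_filter] at hc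
      obtain ⟨hc1, -, H, hopt⟩ := hc
      have h1 := hopt.1.1 x
      have h2 := mem_Om.1 hc1 x
      omega
    have hmaps : ∀ c ∈ (Om X s).filter (fun c => R c c'),
        prof s c c' ∈ (Fintype.piFinset fun _ : Fin s => range (n + 1)).erase 0 := by
      intro c hc
      have hs' := hs c hc
      simp only [mem_filter] at hc
      rw [Finset.mem_erase, Fintype.mem_piFinset]
      refine ⟨fun h0 => ?_, fun i => ?_⟩
      · apply hc.2.1
        funext x
        by_contra hx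
        have := congrFun h0 ⟨c' x, hs' x hx⟩
        simp only [prof, Pi.zero_apply, Finset.card_eq_zero] at this
        have hmem : x ∈ (univ.filter fun y => c' y = c' x ∧ c' y ≠ c y) := by simp [hx]
        rw [this] at hmem
        simp at hmem
      · rw [mem_range, Nat.lt_succ_iff]
        exact Finset.card_le_univ _
    rw [← Finset.sum_fiberwise_of_maps_to hmaps]
    refine le_trans (Finset.sum_le_sum fun m _ => ?_) (sum_prof_le s n)
    obtain ⟨B, hB1, hB2⟩ := exists_container dl s F lam c' m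
    refine count_fixed s w hw0 hw1 c' m B hB1 _ ?_ ?_ ?_ ?_
    · exact (Finset.filter_subset _ _).trans (Finset.filter_subset _ _)
    · intro c hc
      exact (mem_filter.1 hc).2
    · intro c hc
      exact hs c (mem_filter.1 hc).1
    · intro c hc
      obtain ⟨hc1, hc2⟩ := mem_filter.1 hc
      obtain ⟨-, -, H, hopt⟩ := mem_filter.1 hc1
      exact hB2 c H hopt hc2
  -- step 3: exchange the sums
  have step3 : ∀ c ∈ Om X s, ∀ c', R c c' →
      (∏ x, w (c x)) * (∏ x, if c' x = c x then 1 else q)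
      = (∏ x, w (c' x)) *
        ∏ x, if c' x = c x then 1 else (1 / 256 : ℝ) ^ (c' x + 1) * w (c x) := by
    intro c hc c' hR'
    obtain ⟨-, H, hopt⟩ := hR'
    rw [← Finset.prod_mul_distrib, ← Finset.prod_mul_distrib]
    refine Finset.prod_congr rfl fun x _ => ?_
    by_cases hx : c' x = c x
    · simp [hx]
    · have h1 := hopt.1.1 x
      have h2 := mem_Om.1 hc x
      rw [if_neg hx, if_neg hx, hwq (c' x) (by omega)]
      ring
  have hq1 : ∀ c c' : X → ℕ, 0 ≤ (∏ x, if c' x = c x then 1 else q) :=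
    fun c c' => Finset.prod_nonneg fun x _ => by split_ifs <;> positivity
  have main : (∑ c ∈ Bad, ∏ x, w (c x)) * (1 / 2) ≤ 1 / 9 := by
    calc (∑ c ∈ Bad, ∏ x, w (c x)) * (1 / 2)
        = ∑ c ∈ Bad, (∏ x, w (c x)) * (1 / 2) := Finset.sum_mul _ _ _
      _ ≤ ∑ c ∈ Bad, (∏ x, w (c x)) * ∑ c' ∈ (Om X s).filter (R c),
            ∏ x, if c' x = c x then 1 else q :=
          Finset.sum_le_sum fun c hc => mul_le_mul_of_nonneg_left (step1 c hc) (hP0 c)
      _ ≤ ∑ c ∈ Om X s, (∏ x, w (c x)) * ∑ c' ∈ (Om X s).filter (R c),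
            ∏ x, if c' x = c x then 1 else q :=
          Finset.sum_le_sum_of_subset_of_nonneg hBad fun c _ _ =>
            mul_nonneg (hP0 c) (Finset.sum_nonneg fun c' _ => hq1 c c')
      _ = ∑ c ∈ Om X s, ∑ c' ∈ Om X s, if R c c' then (∏ x, w (c' x)) *
            ∏ x, if c' x = c x then 1 else (1 / 256 : ℝ) ^ (c' x + 1) * w (c x) else 0 := by
          refine Finset.sum_congr rfl fun c hc => ?_
          rw [Finset.mul_sum, Finset.sum_filter]
          refine Finset.sum_congr rfl fun c' _ => ?_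
          by_cases h : R c c'
          · rw [if_pos h, if_pos h, step3 c hc c' h]
          · rw [if_neg h, if_neg h]
      _ = ∑ c' ∈ Om X s, (∏ x, w (c' x)) * ∑ c ∈ (Om X s).filter (fun c => R c c'),
            ∏ x, if c' x = c x then 1 else (1 / 256 : ℝ) ^ (c' x + 1) * w (c x) := by
          rw [Finset.sum_comm]
          refine Finset.sum_congr rfl fun c' _ => ?_
          rw [Finset.mul_sum, Finset.sum_filter]
      _ ≤ ∑ c' ∈ Om X s, (∏ x, w (c' x)) * (1 / 9) :=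
          Finset.sum_le_sum fun c' hc' => mul_le_mul_of_nonneg_left (step2 c' hc') (hP0 c')
      _ ≤ 1 / 9 := by
          rw [← Finset.sum_mul]
          linarith
  linarith

end Vale.Agent.P034
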