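import Mathlib

/-!
Definitions for P034: covers, fractional covers and their costs.
A family of subsets of a finite type `X` is a `Finset (Finset X)`.
-/

namespace Vale.Agent.P034

variable {X : Type*} [Fintype X] [DecidableEq X]

/-- `G` covers `F`: every member of `F` contains a member of `G`. -/
def Covers (G F : Finset (Finset X)) : Prop :=
  ∀ H ∈ F, ∃ S ∈ G, S ⊆ H

/-- The cost `c_p(G) = ∑_{S ∈ G} p^{|S|}` of a family. -/
noncomputable def cost (p : ℝ) (G : Finset (Finset X)) : ℝ :=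
  ∑ S ∈ G, p ^ S.card

/-- `F` is `p`-small: some cover has cost at most `1/2` at `p`. -/
def IsSmall (p : ℝ) (F : Finset (Finset X)) : Prop :=
  ∃ G : Finset (Finset X), Covers G F ∧ cost p G ≤ 1 / 2

/-- `g : 2^X → [0,1]` is a fractional cover of `F`. -/
def IsFracCover (g : Finset X → ℝ) (F : Finset (Finset X)) : Prop :=
  (∀ S : Finset X, 0 ≤ g S ∧ g S ≤ 1) ∧ ∀ H ∈ F, 1 ≤ ∑ S ∈ H.powerset, g S

/-- The cost `w(g,p) = ∑_{S ⊆ X} g(S) p^{|S|}` of a fractional cover. -/
noncomputable def fracCost (g : Finset X → ℝ) (p : ℝ) : ℝ :=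
  ∑ S : Finset X, g S * p ^ S.card

end Vale.Agent.P034
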