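import Vale.Agent.P034.Count

/-!
Rounding a fractional cover to an integral cover with a constant loss.
-/

namespace Vale.Agent.P034

open Finset

variable {X : Type*} [Fintype X] [DecidableEq X]

/-- the vertex weights induced on `H` by a fractional cover -/
noncomputable def lamOf (g : Finset X → ℝ) (H : Finset X) (x : X) : ℝ :=
  ∑ S ∈ H.powerset, if x ∈ S then g S / S.card else 0

theorem sum_lamOf (g : Finset X → ℝ) (H : Finset X) (f : X → ℝ) :
    ∑ x, lamOf g H x * f x = ∑ S ∈ H.powerset, g S / S.card * ∑ x ∈ S, f x := by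
  unfold lamOf
  simp_rw [Finset.sum_mul]
  rw [Finset.sum_comm]
  refine Finset.sum_congr rfl fun S _ => ?_
  rw [Finset.mul_sum]
  simp_rw [ite_mul, zero_mul]
  rw [← Finset.sum_filter]
  congr 1
  ext; simp

theorem exists_weights (q : ℝ) (hq : 0 < q) :
    ∃ (s : ℕ) (w : ℕ → ℝ), (∀ k, 0 ≤ w k) ∧ ∑ k ∈ range (s + 1), w k = 1 ∧
      (∀ k < s, q = (1 / 256 : ℝ) ^ (k + 1) * w k) ∧ ∀ k ≤ s, w k ≤ 256 ^ (k + 1) * q := by
  classical
  have hex : ∃ s : ℕ, 1 ≤ ∑ k ∈ range (s + 1), (256 : ℝ) ^ (k + 1) * q := by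
    obtain ⟨n, hn⟩ := pow_unbounded_of_one_lt (1 / q) (by norm_num : (1 : ℝ) < 256)
    refine ⟨n, le_trans ?_ (Finset.single_le_sum
      (f := fun k => (256 : ℝ) ^ (k + 1) * q) (fun k _ => by positivity) (self_mem_range_succ n))⟩
    rw [div_lt_iff₀ hq] at hn
    have : 0 < (256 : ℝ) ^ n * q := by positivity
    rw [pow_succ]
    nlinarith
  set s := Nat.find hex with hs
  have h1 : 1 ≤ ∑ k ∈ range (s + 1), (256 : ℝ) ^ (k + 1) * q := Nat.find_spec hex
  have h2 : ∑ k ∈ range s, (256 : ℝ) ^ (k + 1) * q ≤ 1 := by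
    rcases Nat.eq_zero_or_pos s with h0 | h0
    · rw [h0]; simp
    · have := Nat.find_min hex (m := s - 1) (by omega)
      rw [show s - 1 + 1 = s by omega] at this
      exact (not_le.1 this).le
  refine ⟨s, fun k => if k < s then 256 ^ (k + 1) * q
    else 1 - ∑ k ∈ range s, (256 : ℝ) ^ (k + 1) * q, fun k => ?_, ?_, fun k hk => ?_, fun k hk => ?_⟩
  · dsimp only
    split_ifs
    · positivity
    · linarith
  · rw [Finset.sum_range_succ, if_neg (lt_irrefl s),
      Finset.sum_congr rfl fun k hk => if_pos (mem_range.1 hk)]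
    ring
  · simp only [if_pos hk]
    rw [← mul_assoc, ← mul_pow]
    norm_num
  · dsimp only
    split_ifs with h
    · exact le_rfl
    · have : k = s := by omega
      subst this
      rw [Finset.sum_range_succ] at h1
      linarith

/-- the test function of a set and a colouring -/
noncomputable def psi (S : Finset X) (c : X → ℕ) : ℝ :=
  ∏ x ∈ S, (512 : ℝ) ^ 2 * (1 / 512) ^ c x

omit [Fintype X] [DecidableEq X] in
theorem psi_nonneg (S : Finset X) (c : X → ℕ) : 0 ≤ psi S c :=
  Finset.prod_nonneg fun x _ => by positivity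

omit [Fintype X] [DecidableEq X] in
theorem one_le_psi (S : Finset X) (hS : S.Nonempty) (c : X → ℕ) :
    1 ≤ psi S c + (1 / 2) * ((1 / (S.card : ℝ)) * ∑ x ∈ S, (c x : ℝ)) := by
  have hc : (0 : ℝ) < S.card := by exact_mod_cast hS.card_pos
  have h0 := psi_nonneg S c
  by_cases h : ∑ x ∈ S, c x ≤ 2 * S.card
  · have h1 : 1 ≤ psi S c := by
      unfold psi
      rw [Finset.prod_mul_distrib, Finset.prod_const, Finset.prod_pow_eq_pow_sum, ← pow_mul,
        one_div_pow, mul_one_div, le_div_iff₀ (by positivity), one_mul]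
      exact pow_le_pow_right₀ (by norm_num) h
    have h2 : 0 ≤ (1 / (S.card : ℝ)) * ∑ x ∈ S, (c x : ℝ) := by positivity
    linarith
  · push Not at h
    have h1 : 2 * (S.card : ℝ) ≤ ∑ x ∈ S, (c x : ℝ) := by exact_mod_cast h.le
    have h2 : 2 ≤ (1 / (S.card : ℝ)) * ∑ x ∈ S, (c x : ℝ) := by
      rw [one_div, inv_mul_eq_div, le_div_iff₀ hc]
      exact h1
    linarith

theorem good_lower (s : ℕ) (F : Finset (Finset X)) (g : Finset X → ℝ) (hg : IsFracCover g F)
    (c : X → ℕ) (hc : c ∈ Om X s) (hgood : Good dl s F (lamOf g) c) :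
    (1 - g ∅) / 2 ≤ ∑ S ∈ univ.erase (∅ : Finset X), g S * psi S c := by
  classical
  obtain ⟨H, hH, hl⟩ := hgood
  have hg0 : ∀ S, 0 ≤ g S := fun S => (hg.1 S).1
  have hlam0 : ∀ x, 0 ≤ lamOf g H x := fun x => Finset.sum_nonneg fun S _ => by
    have := hg0 S
    split_ifs <;> positivity
  set G := ∑ x, lamOf g H x with hG
  have hG0 : 0 ≤ G := Finset.sum_nonneg fun x _ => hlam0 x
  have hemp : (∅ : Finset X) ∈ H.powerset := Finset.empty_mem_powerset H
  have hG1 : G = ∑ S ∈ H.powerset.erase ∅, g S := by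
    have := sum_lamOf g H (fun _ => 1)
    simp only [mul_one] at this
    rw [hG, this, ← Finset.add_sum_erase _ _ hemp]
    simp only [sum_empty, mul_zero, zero_add]
    refine Finset.sum_congr rfl fun S hS => ?_
    have hne : S.Nonempty := Finset.nonempty_iff_ne_empty.2 (Finset.ne_of_mem_erase hS)
    have hc : (0 : ℝ) < S.card := by exact_mod_cast hne.card_pos
    rw [Finset.sum_const, nsmul_eq_mul]
    field_simp
  have hG2 : 1 - g ∅ ≤ G := by
    have := hg.2 H hH
    rw [← Finset.add_sum_erase _ _ hemp, ← hG1] at this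
    linarith
  have hsum : ∑ x, lamOf g H x * (c x : ℝ) ≤ G := by
    have h1 : ∀ x, lamOf g H x * (c x : ℝ) = ∑ i ∈ range s, if i < c x then lamOf g H x else 0 := by
      intro x
      have hx := mem_Om.1 hc x
      rw [← Finset.sum_filter, Finset.sum_const, nsmul_eq_mul]
      have : (range s).filter (fun i => i < c x) = range (c x) := by
        ext i; simp only [mem_filter, mem_range]; omega
      rw [this, card_range, mul_comm]
    simp_rw [h1]
    rw [Finset.sum_comm]
    refine (Finset.sum_le_sum fun i hi => hl i (mem_range.1 hi)).trans ?_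
    rw [← Finset.sum_mul]
    have := sum_half_le s
    unfold dl
    nlinarith
  rw [sum_lamOf, ← Finset.add_sum_erase _ _ hemp] at hsum
  simp only [sum_empty, mul_zero, zero_add] at hsum
  have h2 : G ≤ ∑ S ∈ H.powerset.erase ∅, g S * psi S c
      + (1 / 2) * ∑ S ∈ H.powerset.erase ∅, g S / S.card * ∑ x ∈ S, (c x : ℝ) := by
    rw [hG1, Finset.mul_sum, ← Finset.sum_add_distrib]
    refine Finset.sum_le_sum fun S hS => ?_
    have hne : S.Nonempty := Finset.nonempty_iff_ne_empty.2 (Finset.ne_of_mem_erase hS)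
    have := mul_le_mul_of_nonneg_left (one_le_psi S hne c) (hg0 S)
    have e : g S * (psi S c + (1 / 2) * ((1 / (S.card : ℝ)) * ∑ x ∈ S, (c x : ℝ)))
        = g S * psi S c + (1 / 2) * (g S / S.card * ∑ x ∈ S, (c x : ℝ)) := by ring
    linarith
  have h3 : ∑ S ∈ H.powerset.erase ∅, g S * psi S c
      ≤ ∑ S ∈ univ.erase (∅ : Finset X), g S * psi S c :=
    Finset.sum_le_sum_of_subset_of_nonneg (Finset.erase_subset_erase _ (subset_univ _))
      fun S _ _ => mul_nonneg (hg0 S) (psi_nonneg S c)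
  linarith

theorem exp_psi (s : ℕ) (q : ℝ) (hq : 0 ≤ q) (w : ℕ → ℝ) (hw0 : ∀ k, 0 ≤ w k)
    (hw1 : ∑ k ∈ range (s + 1), w k = 1) (hw2 : ∀ k ≤ s, w k ≤ 256 ^ (k + 1) * q)
    (S : Finset X) :
    ∑ c ∈ Om X s, (∏ x, w (c x)) * psi S c ≤ (512 ^ 3 * q) ^ S.card := by
  classical
  have h1 : ∀ c : X → ℕ, (∏ x, w (c x)) * psi S c
      = ∏ x, w (c x) * if x ∈ S then (512 : ℝ) ^ 2 * (1 / 512) ^ c x else 1 := by
    intro c
    rw [Finset.prod_mul_distrib, ← Finset.prod_filter]
    congr 1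
    unfold psi
    congr 1
    ext; simp
  simp_rw [h1]
  have h2 := Finset.prod_univ_sum (fun _ : X => range (s + 1))
    (fun x k => w k * if x ∈ S then (512 : ℝ) ^ 2 * (1 / 512) ^ k else 1)
  unfold Om
  rw [← h2]
  have h3 : (512 ^ 3 * q) ^ S.card = ∏ x, if x ∈ S then 512 ^ 3 * q else 1 := by
    rw [← Finset.prod_filter, Finset.prod_const]
    congr 2
    ext; simp
  rw [h3]
  refine Finset.prod_le_prod (fun x _ => Finset.sum_nonneg fun k _ => ?_) fun x _ => ?_
  · have := hw0 k
    split_ifs <;> positivity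
  · by_cases hx : x ∈ S
    · simp only [if_pos hx]
      have h4 : ∀ k ∈ range (s + 1), w k * ((512 : ℝ) ^ 2 * (1 / 512) ^ k)
          ≤ (512 ^ 2 * 256 * q) * (1 / 2) ^ k := by
        intro k hk
        have h5 := hw2 k (Nat.lt_succ_iff.1 (mem_range.1 hk))
        have h6 : (0 : ℝ) ≤ 512 ^ 2 * (1 / 512) ^ k := by positivity
        refine (mul_le_mul_of_nonneg_right h5 h6).trans (le_of_eq ?_)
        have h7 : (1 / 2 : ℝ) ^ k = 256 ^ k * (1 / 512) ^ k := by
          rw [← mul_pow]; norm_num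
        rw [h7, pow_succ]
        ring
      refine (Finset.sum_le_sum h4).trans ?_
      rw [← Finset.mul_sum]
      have := sum_geometric_two_le (s + 1)
      nlinarith
    · simp only [if_neg hx, mul_one, hw1, le_refl]

theorem small_of_frac (F : Finset (Finset X)) (hF : ∅ ∉ F) (g : Finset X → ℝ)
    (hg : IsFracCover g F) (p : ℝ) (hp : 0 ≤ p) (hw : fracCost g p ≤ 1 / 2) :
    IsSmall (p / (4 * 512 ^ 3)) F := by
  classical
  rcases hp.eq_or_lt with rfl | hp
  · refine ⟨F, fun H hH => ⟨H, hH, subset_rfl⟩, ?_⟩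
    unfold cost
    rw [Finset.sum_eq_zero]
    · norm_num
    · intro S hS
      have : S.card ≠ 0 := fun h => hF (Finset.card_eq_zero.1 h ▸ hS)
      simp [this]
  by_contra hns
  set q := p / (4 * 512 ^ 3) with hqdef
  have hq : 0 < q := by positivity
  obtain ⟨s, w, hw0, hw1, hwq, hw2⟩ := exists_weights q hq
  have hg0 : ∀ S, 0 ≤ g S := fun S => (hg.1 S).1
  have hlam0 : ∀ H x, 0 ≤ lamOf g H x := fun H x => Finset.sum_nonneg fun S _ => by
    have := hg0 S
    split_ifs <;> positivity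
  have hlamH : ∀ H x, x ∉ H → lamOf g H x = 0 := fun H x hx =>
    Finset.sum_eq_zero fun S hS => if_neg fun h => hx (Finset.mem_powerset.1 hS h)
  have htot : ∑ c ∈ Om X s, ∏ x, w (c x) = 1 := by
    have h2 := Finset.prod_univ_sum (fun _ : X => range (s + 1)) (fun _ k => w k)
    unfold Om
    rw [← h2, hw1, Finset.prod_const_one]
  have hP0 : ∀ c : X → ℕ, 0 ≤ ∏ x, w (c x) := fun c => Finset.prod_nonneg fun x _ => hw0 _
  have hbad := bad_bound s F (lamOf g) hlam0 hlamH q hq.le hns w hw0 hw1.le hwq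
    ((Om X s).filter fun c => ¬ Good dl s F (lamOf g) c) (Finset.filter_subset _ _)
    (fun c hc => (mem_filter.1 hc).2) htot.le
  have hsplit := Finset.sum_filter_add_sum_filter_not (Om X s)
    (fun c => Good dl s F (lamOf g) c) (fun c => ∏ x, w (c x))
  set PG := ∑ c ∈ (Om X s).filter (fun c => Good dl s F (lamOf g) c), ∏ x, w (c x) with hPG
  have hPG1 : 7 / 9 ≤ PG := by linarith
  have hcost : g ∅ + ∑ S ∈ univ.erase (∅ : Finset X), g S * p ^ S.card ≤ 1 / 2 := by
    unfold fracCost at hw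
    rw [← Finset.add_sum_erase _ _ (mem_univ ∅)] at hw
    simpa using hw
  have hrest : 0 ≤ ∑ S ∈ univ.erase (∅ : Finset X), g S * p ^ S.card :=
    Finset.sum_nonneg fun S _ => mul_nonneg (hg0 S) (by positivity)
  have hmain : PG * ((1 - g ∅) / 2)
      ≤ (1 / 4) * ∑ S ∈ univ.erase (∅ : Finset X), g S * p ^ S.card := by
    calc PG * ((1 - g ∅) / 2)
        = ∑ c ∈ (Om X s).filter (fun c => Good dl s F (lamOf g) c),
            (∏ x, w (c x)) * ((1 - g ∅) / 2) := Finset.sum_mul _ _ _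
      _ ≤ ∑ c ∈ (Om X s).filter (fun c => Good dl s F (lamOf g) c),
            (∏ x, w (c x)) * ∑ S ∈ univ.erase (∅ : Finset X), g S * psi S c :=
          Finset.sum_le_sum fun c hc => mul_le_mul_of_nonneg_left
            (good_lower s F g hg c (mem_filter.1 hc).1 (mem_filter.1 hc).2) (hP0 c)
      _ ≤ ∑ c ∈ Om X s, (∏ x, w (c x)) * ∑ S ∈ univ.erase (∅ : Finset X), g S * psi S c :=
          Finset.sum_le_sum_of_subset_of_nonneg (Finset.filter_subset _ _) fun c _ _ =>
            mul_nonneg (hP0 c) (Finset.sum_nonneg fun S _ => mul_nonneg (hg0 S) (psi_nonneg S c))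
      _ = ∑ S ∈ univ.erase (∅ : Finset X), g S * ∑ c ∈ Om X s, (∏ x, w (c x)) * psi S c := by
          simp_rw [Finset.mul_sum]
          rw [Finset.sum_comm]
          refine Finset.sum_congr rfl fun S _ => Finset.sum_congr rfl fun c _ => by ring
      _ ≤ ∑ S ∈ univ.erase (∅ : Finset X), (1 / 4) * (g S * p ^ S.card) := by
          refine Finset.sum_le_sum fun S hS => ?_
          have h1 := exp_psi s q hq.le w hw0 hw1 hw2 S
          have h2 : 512 ^ 3 * q = (1 / 4) * p := by rw [hqdef]; field_simp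
          have hne : S.Nonempty := Finset.nonempty_iff_ne_empty.2 (Finset.ne_of_mem_erase hS)
          have h3 : (1 / 4 : ℝ) ^ S.card ≤ 1 / 4 :=
            pow_le_of_le_one (by norm_num) (by norm_num) hne.card_pos.ne'
          rw [h2, mul_pow] at h1
          have h4 : (1 / 4 : ℝ) ^ S.card * p ^ S.card ≤ 1 / 4 * p ^ S.card :=
            mul_le_mul_of_nonneg_right h3 (by positivity)
          have h5 := mul_le_mul_of_nonneg_left (h1.trans h4) (hg0 S)
          linarith
      _ = (1 / 4) * ∑ S ∈ univ.erase (∅ : Finset X), g S * p ^ S.card :=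
          (Finset.mul_sum _ _ _).symm
  have hge := hg0 ∅
  have h5 : 7 / 9 * ((1 - g ∅) / 2) ≤ PG * ((1 - g ∅) / 2) :=
    mul_le_mul_of_nonneg_right hPG1 (by linarith)
  linarith

omit [DecidableEq X] in
theorem exists_max_small (F : Finset (Finset X)) (hF : ∅ ∉ F) :
    ∃ q, IsGreatest {p : ℝ | p ∈ Set.Icc (0 : ℝ) 1 ∧ IsSmall p F} q := by
  classical
  apply IsCompact.exists_isGreatest
  · have : {p : ℝ | p ∈ Set.Icc (0 : ℝ) 1 ∧ IsSmall p F} = Set.Icc (0 : ℝ) 1 ∩
        ⋃ G : {G : Finset (Finset X) // Covers G F}, {p | cost p G.1 ≤ 1 / 2} := by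
      ext p
      simp only [Set.mem_ofPred_eq, Set.mem_inter_iff, Set.mem_iUnion, IsSmall, Subtype.exists,
        exists_prop]
    rw [this]
    refine isCompact_Icc.inter_right (isClosed_iUnion_of_finite fun G => ?_)
    refine isClosed_le ?_ continuous_const
    unfold cost
    fun_prop
  · refine ⟨0, ⟨le_rfl, zero_le_one⟩, F, fun H hH => ⟨H, hH, subset_rfl⟩, ?_⟩
    unfold cost
    rw [Finset.sum_eq_zero]
    · norm_num
    · intro S hS
      have : S.card ≠ 0 := fun h => hF (Finset.card_eq_zero.1 h ▸ hS)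
      simp [this]

theorem exists_max_frac (F : Finset (Finset X)) (hF : ∅ ∉ F) :
    ∃ q, IsGreatest {p : ℝ | p ∈ Set.Icc (0 : ℝ) 1 ∧
      ∃ g : Finset X → ℝ, IsFracCover g F ∧ fracCost g p ≤ 1 / 2} q := by
  classical
  apply IsCompact.exists_isGreatest
  · have : {p : ℝ | p ∈ Set.Icc (0 : ℝ) 1 ∧
        ∃ g : Finset X → ℝ, IsFracCover g F ∧ fracCost g p ≤ 1 / 2} = Prod.snd ''
        (((Set.pi Set.univ fun _ : Finset X => Set.Icc (0 : ℝ) 1) ×ˢ Set.Icc (0 : ℝ) 1) ∩
          ((⋂ H ∈ F, {z : (Finset X → ℝ) × ℝ | 1 ≤ ∑ S ∈ H.powerset, z.1 S}) ∩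
            {z | fracCost z.1 z.2 ≤ 1 / 2})) := by
      ext p
      simp only [Set.mem_ofPred_eq, Set.mem_image, Set.mem_inter_iff, Set.mem_prod, Set.mem_pi,
        Set.mem_univ, forall_true_left, Set.mem_iInter, Prod.exists, exists_eq_right, IsFracCover,
        Set.mem_Icc]
      constructor
      · rintro ⟨h1, g, ⟨h2, h3⟩, h4⟩
        exact ⟨g, ⟨h2, h1⟩, h3, h4⟩
      · rintro ⟨g, ⟨h2, h1⟩, h3, h4⟩
        exact ⟨h1, g, ⟨h2, h3⟩, h4⟩
    rw [this]
    refine IsCompact.image ?_ continuous_snd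
    refine IsCompact.inter_right ((isCompact_univ_pi fun _ => isCompact_Icc).prod isCompact_Icc)
      (IsClosed.inter (isClosed_biInter fun H _ => isClosed_le continuous_const (by fun_prop)) ?_)
    refine isClosed_le ?_ continuous_const
    unfold fracCost
    fun_prop
  · refine ⟨0, ⟨le_rfl, zero_le_one⟩, fun S => if S = ∅ then 0 else 1, ⟨fun S => ?_, ?_⟩, ?_⟩
    · dsimp only
      split_ifs <;> simp
    · intro H hH
      have hne : H ≠ ∅ := fun h => hF (h ▸ hH)
      refine le_trans ?_ (Finset.single_le_sum (f := fun S : Finset X => if S = ∅ then (0 : ℝ) else 1)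
        (fun S _ => by split_ifs <;> simp) (Finset.mem_powerset_self H))
      simp [hne]
    · unfold fracCost
      rw [Finset.sum_eq_zero]
      · norm_num
      · intro S _
        by_cases hS : S = ∅
        · simp [hS]
        · have : S.card ≠ 0 := fun h => hS (Finset.card_eq_zero.1 h)
          simp [this]

end Vale.Agent.P034
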